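import Vale.Agent.Lib.P205.Invariant
import Vale.Agent.Lib.P205.NF.FinalW

namespace Vale.Agent.Results.P205.Combined

open scoped ContDiff

/-- Two families of Riemannian tori that immerse isometrically in Euclidean four-space.

First part: every metric `E(x) dx^2 + 2 F(x) dx dy + G(x) dy^2` on the torus
`R^2 / (aZ x bZ)` whose coefficients do not depend on the second coordinate (smooth,
`a`-periodic, `G > 0`, `E G - F^2 > 0`) is the pullback of the Euclidean metric under a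
smooth map `R^2 → R^4` that is `a`-periodic in `x` and `b`-periodic in `y`.

Second part: for all `A, B > 0` there is `δ > 0` such that every smooth metric
`E dx^2 + 2 F dx dy + G dy^2` on the torus `R^2 / (2 pi Z)^2` (three smooth real functions,
`2 pi`-periodic in each variable) within `δ` of the flat metric `A^2 dx^2 + B^2 dy^2` in
the `C^6` norm is the pullback of the Euclidean metric under a smooth doubly
`2 pi`-periodic map `R^2 → R^4`; no symmetry of the metric is assumed. -/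
theorem result :
    (∀ a b : ℝ, 0 < a → 0 < b → ∀ E F G : ℝ → ℝ,
      ContDiff ℝ ∞ E → ContDiff ℝ ∞ F → ContDiff ℝ ∞ G →
      (∀ x, 0 < G x) → (∀ x, 0 < E x * G x - F x ^ 2) →
      (∀ x, E (x + a) = E x) → (∀ x, F (x + a) = F x) → (∀ x, G (x + a) = G x) →
      ∃ Ψ : ℝ × ℝ → EuclideanSpace ℝ (Fin 4), ContDiff ℝ ∞ Ψ ∧
        (∀ x y, Ψ (x + a, y) = Ψ (x, y)) ∧ (∀ x y, Ψ (x, y + b) = Ψ (x, y)) ∧
        ∀ p v w : ℝ × ℝ, inner ℝ (fderiv ℝ Ψ p v) (fderiv ℝ Ψ p w) =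
          E p.1 * v.1 * w.1 + F p.1 * (v.1 * w.2 + v.2 * w.1) + G p.1 * v.2 * w.2) ∧
    (∀ A B : ℝ, 0 < A → 0 < B → ∃ δ : ℝ, 0 < δ ∧
      ∀ E F G : ℝ × ℝ → ℝ, ContDiff ℝ ∞ E → ContDiff ℝ ∞ F → ContDiff ℝ ∞ G →
      (∀ p : ℝ × ℝ, E (p.1 + 2 * Real.pi, p.2) = E p ∧ E (p.1, p.2 + 2 * Real.pi) = E p ∧
        F (p.1 + 2 * Real.pi, p.2) = F p ∧ F (p.1, p.2 + 2 * Real.pi) = F p ∧
        G (p.1 + 2 * Real.pi, p.2) = G p ∧ G (p.1, p.2 + 2 * Real.pi) = G p) →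
      (∀ p : ℝ × ℝ, ∀ j : ℕ, j ≤ 6 →
        ‖iteratedFDeriv ℝ j (fun q => E q - A ^ 2) p‖ ≤ δ ∧
        ‖iteratedFDeriv ℝ j F p‖ ≤ δ ∧
        ‖iteratedFDeriv ℝ j (fun q => G q - B ^ 2) p‖ ≤ δ) →
      ∃ Ψ : ℝ × ℝ → EuclideanSpace ℝ (Fin 4), ContDiff ℝ ∞ Ψ ∧
        (∀ p : ℝ × ℝ, Ψ (p.1 + 2 * Real.pi, p.2) = Ψ p) ∧
        (∀ p : ℝ × ℝ, Ψ (p.1, p.2 + 2 * Real.pi) = Ψ p) ∧
        ∀ p v w : ℝ × ℝ, inner ℝ (fderiv ℝ Ψ p v) (fderiv ℝ Ψ p w) =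
          E p * v.1 * w.1 + F p * (v.1 * w.2 + v.2 * w.1) + G p * v.2 * w.2) :=
  ⟨fun a b ha hb E F G hE hF hG hGpos hdet hEper hFper hGper =>
      Vale.Agent.Lib.P205.invariant_torus a b ha hb E F G hE hF hG hGpos hdet hEper hFper hGper,
    fun A B hA hB => Vale.Agent.Lib.P205.NF.near_flat_fun A B hA hB⟩

end Vale.Agent.Results.P205.Combined
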