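import Vale.Agent.Lib.P205.Invariant
import Vale.Agent.Lib.P205.NF.LFinal
import Vale.Agent.Lib.P205.KB.KMain

namespace Vale.Agent.Results.P205.CombinedKlein

open scoped ContDiff

/-- Three families of closed Riemannian surfaces that immerse isometrically in Euclidean
four-space.

First part (tori): every metric `E(x) dx^2 + 2 F(x) dx dy + G(x) dy^2` on the torus
`R^2 / (aZ x bZ)` whose coefficients do not depend on the second coordinate (smooth,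
`a`-periodic, `G > 0`, `E G - F^2 > 0`) is the pullback of the Euclidean metric under a
smooth map `R^2 → R^4` that is `a`-periodic in `x` and `b`-periodic in `y`.

Second part (Klein bottles): if moreover `E` and `G` are even and `F` is odd, so that the
metric is invariant under `(x, y) ↦ (-x, y + b)` as well, there is such a map that is
invariant under `(x, y) ↦ (x + a, y)` and `(x, y) ↦ (-x, y + b)`; it descends to the Klein
bottle `R^2 / <(x, y) ↦ (x + a, y), (x, y) ↦ (-x, y + b)>`.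

Third part (tori, no symmetry): for every pair of linearly independent integer vectors `k`,
`l` and all `A, B > 0` there is `δ > 0` such that every smooth metric
`E dx^2 + 2 F dx dy + G dy^2` on the torus `R^2 / (2 pi Z)^2` within `δ`, in the `C^6` norm,
of the flat metric `A^2 (k.dp)^2 + B^2 (l.dp)^2` is the pullback of the Euclidean metric
under a smooth doubly `2 pi`-periodic map `R^2 → R^4`. -/
theorem result :
    (∀ a b : ℝ, 0 < a → 0 < b → ∀ E F G : ℝ → ℝ,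
      ContDiff ℝ ∞ E → ContDiff ℝ ∞ F → ContDiff ℝ ∞ G →
      (∀ x, 0 < G x) → (∀ x, 0 < E x * G x - F x ^ 2) →
      (∀ x, E (x + a) = E x) → (∀ x, F (x + a) = F x) → (∀ x, G (x + a) = G x) →
      ∃ Ψ : ℝ × ℝ → EuclideanSpace ℝ (Fin 4), ContDiff ℝ ∞ Ψ ∧
        (∀ x y, Ψ (x + a, y) = Ψ (x, y)) ∧ (∀ x y, Ψ (x, y + b) = Ψ (x, y)) ∧
        ∀ p v w : ℝ × ℝ, inner ℝ (fderiv ℝ Ψ p v) (fderiv ℝ Ψ p w) =
          E p.1 * v.1 * w.1 + F p.1 * (v.1 * w.2 + v.2 * w.1) + G p.1 * v.2 * w.2) ∧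
    (∀ a b : ℝ, 0 < a → 0 < b → ∀ E F G : ℝ → ℝ,
      ContDiff ℝ ∞ E → ContDiff ℝ ∞ F → ContDiff ℝ ∞ G →
      (∀ x, 0 < G x) → (∀ x, 0 < E x * G x - F x ^ 2) →
      (∀ x, E (x + a) = E x) → (∀ x, F (x + a) = F x) → (∀ x, G (x + a) = G x) →
      (∀ x, E (-x) = E x) → (∀ x, F (-x) = -F x) → (∀ x, G (-x) = G x) →
      ∃ Ψ : ℝ × ℝ → EuclideanSpace ℝ (Fin 4), ContDiff ℝ ∞ Ψ ∧
        (∀ x y, Ψ (x + a, y) = Ψ (x, y)) ∧ (∀ x y, Ψ (-x, y + b) = Ψ (x, y)) ∧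
        ∀ p v w : ℝ × ℝ, inner ℝ (fderiv ℝ Ψ p v) (fderiv ℝ Ψ p w) =
          E p.1 * v.1 * w.1 + F p.1 * (v.1 * w.2 + v.2 * w.1) + G p.1 * v.2 * w.2) ∧
    (∀ k l : ℤ × ℤ, k.1 * l.2 - k.2 * l.1 ≠ 0 → ∀ A B : ℝ, 0 < A → 0 < B → ∃ δ : ℝ, 0 < δ ∧
      ∀ E F G : ℝ × ℝ → ℝ, ContDiff ℝ ∞ E → ContDiff ℝ ∞ F → ContDiff ℝ ∞ G →
      (∀ p : ℝ × ℝ, E (p.1 + 2 * Real.pi, p.2) = E p ∧ E (p.1, p.2 + 2 * Real.pi) = E p ∧
        F (p.1 + 2 * Real.pi, p.2) = F p ∧ F (p.1, p.2 + 2 * Real.pi) = F p ∧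
        G (p.1 + 2 * Real.pi, p.2) = G p ∧ G (p.1, p.2 + 2 * Real.pi) = G p) →
      (∀ p : ℝ × ℝ, ∀ j : ℕ, j ≤ 6 →
        ‖iteratedFDeriv ℝ j
          (fun q => E q - (A ^ 2 * (k.1 : ℝ) ^ 2 + B ^ 2 * (l.1 : ℝ) ^ 2)) p‖ ≤ δ ∧
        ‖iteratedFDeriv ℝ j
          (fun q => F q - (A ^ 2 * ((k.1 : ℝ) * (k.2 : ℝ)) + B ^ 2 * ((l.1 : ℝ) * (l.2 : ℝ)))) p‖
            ≤ δ ∧
        ‖iteratedFDeriv ℝ j
          (fun q => G q - (A ^ 2 * (k.2 : ℝ) ^ 2 + B ^ 2 * (l.2 : ℝ) ^ 2)) p‖ ≤ δ) →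
      ∃ Ψ : ℝ × ℝ → EuclideanSpace ℝ (Fin 4), ContDiff ℝ ∞ Ψ ∧
        (∀ p : ℝ × ℝ, Ψ (p.1 + 2 * Real.pi, p.2) = Ψ p) ∧
        (∀ p : ℝ × ℝ, Ψ (p.1, p.2 + 2 * Real.pi) = Ψ p) ∧
        ∀ p v w : ℝ × ℝ, inner ℝ (fderiv ℝ Ψ p v) (fderiv ℝ Ψ p w) =
          E p * v.1 * w.1 + F p * (v.1 * w.2 + v.2 * w.1) + G p * v.2 * w.2) :=
  ⟨fun a b ha hb E F G hE hF hG hGpos hdet hEper hFper hGper =>
      Vale.Agent.Lib.P205.invariant_torus a b ha hb E F G hE hF hG hGpos hdet hEper hFper hGper,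
    fun a b ha hb E F G hE hF hG hGpos hdet hEper hFper hGper hEev hFodd hGev =>
      Vale.Agent.Lib.P205.KB.invariant_klein a b ha hb E F G hE hF hG hGpos hdet hEper hFper
        hGper hEev hFodd hGev,
    fun k l hD A B hA hB => Vale.Agent.Lib.P205.NF.near_flat_lattice k l hD A B hA hB⟩

end Vale.Agent.Results.P205.CombinedKlein
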