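import Vale.Agent.Lib.P205.KB.KMain

namespace Vale.Agent.Results.P205.InvariantKlein

open scoped ContDiff

/-- Circle-invariant Riemannian Klein bottles immerse isometrically in Euclidean four-space.

The Klein bottle is `R^2` modulo the group generated by `(x, y) ↦ (x + a, y)` and
`(x, y) ↦ (-x, y + b)`.  A metric `E(x) dx^2 + 2 F(x) dx dy + G(x) dy^2` on the plane whose
coefficients do not depend on `y` is invariant under this group exactly when `E`, `F`, `G`
are `a`-periodic, `E` and `G` are even and `F` is odd.  For every such smooth metric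
(`G > 0`, `E G - F^2 > 0`) there is a smooth map `R^2 → R^4`, invariant under both
generators, that pulls the Euclidean metric back to it. -/
theorem result :
    ∀ a b : ℝ, 0 < a → 0 < b → ∀ E F G : ℝ → ℝ,
      ContDiff ℝ ∞ E → ContDiff ℝ ∞ F → ContDiff ℝ ∞ G →
      (∀ x, 0 < G x) → (∀ x, 0 < E x * G x - F x ^ 2) →
      (∀ x, E (x + a) = E x) → (∀ x, F (x + a) = F x) → (∀ x, G (x + a) = G x) →
      (∀ x, E (-x) = E x) → (∀ x, F (-x) = -F x) → (∀ x, G (-x) = G x) →
      ∃ Ψ : ℝ × ℝ → EuclideanSpace ℝ (Fin 4), ContDiff ℝ ∞ Ψ ∧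
        (∀ x y, Ψ (x + a, y) = Ψ (x, y)) ∧ (∀ x y, Ψ (-x, y + b) = Ψ (x, y)) ∧
        ∀ p v w : ℝ × ℝ, inner ℝ (fderiv ℝ Ψ p v) (fderiv ℝ Ψ p w) =
          E p.1 * v.1 * w.1 + F p.1 * (v.1 * w.2 + v.2 * w.1) + G p.1 * v.2 * w.2 :=
  fun a b ha hb E F G hE hF hG hGpos hdet hEper hFper hGper hEev hFodd hGev =>
    Vale.Agent.Lib.P205.KB.invariant_klein a b ha hb E F G hE hF hG hGpos hdet hEper hFper
      hGper hEev hFodd hGev

end Vale.Agent.Results.P205.InvariantKlein
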